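import Mathlib

/-! Locally midpoint-preserving maps on convex sets, and extension of locally affine isometries. -/

namespace Vale.Agent.P084

open Metric Set

/-- A continuous function on `[0,1]` vanishing at the end points, nonnegative and locally
midpoint-convex, is zero. -/
theorem local_mid_zero (v : ℝ → ℝ) (hc : ContinuousOn v (Icc 0 1)) (h0 : v 0 = 0) (h1 : v 1 = 0)
    (hloc : ∀ t ∈ Icc (0 : ℝ) 1, ∃ δ > 0, ∀ s ∈ Icc (0 : ℝ) 1, ∀ s' ∈ Icc (0 : ℝ) 1,
      |s - t| < δ → |s' - t| < δ → v ((s + s') / 2) ≤ (v s + v s') / 2)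
    (t : ℝ) (ht : t ∈ Icc (0 : ℝ) 1) : v t ≤ 0 := by
  by_contra hcon
  push Not at hcon
  obtain ⟨m, hm, hmax⟩ := isCompact_Icc.exists_isMaxOn (nonempty_Icc.2 zero_le_one) hc
  have hM : 0 < v m := hcon.trans_le (hmax ht)
  set A : Set ℝ := {s | s ∈ Icc (0 : ℝ) 1 ∧ v m ≤ v s} with hA
  have hAc : IsCompact A := by
    have : A = Icc (0 : ℝ) 1 ∩ v ⁻¹' (Ici (v m)) := by
      ext s; simp [hA]
    rw [this]
    exact isCompact_Icc.of_isClosed_subset
      (hc.preimage_isClosed_of_isClosed isClosed_Icc isClosed_Ici) inter_subset_left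
  obtain ⟨s, hsA, hsl⟩ := hAc.exists_isLeast ⟨m, hm, le_refl _⟩
  have hs0 : s ≠ 0 := by
    rintro rfl
    have := hsA.2
    rw [h0] at this
    linarith
  have hs1 : s ≠ 1 := by
    rintro rfl
    have := hsA.2
    rw [h1] at this
    linarith
  have hs0' : 0 < s := lt_of_le_of_ne hsA.1.1 (Ne.symm hs0)
  have hs1' : s < 1 := lt_of_le_of_ne hsA.1.2 hs1
  obtain ⟨δ, hδ, hloc'⟩ := hloc s hsA.1
  set η := min (δ / 2) (min s (1 - s)) with hη
  have hη0 : 0 < η := lt_min (by linarith) (lt_min hs0' (by linarith))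
  have hηδ : η < δ := (min_le_left _ _).trans_lt (by linarith)
  have hηs : η ≤ s := (min_le_right _ _).trans (min_le_left _ _)
  have hηs1 : η ≤ 1 - s := (min_le_right _ _).trans (min_le_right _ _)
  have hm1 : s - η ∈ Icc (0 : ℝ) 1 := ⟨by linarith, by linarith⟩
  have hm2 : s + η ∈ Icc (0 : ℝ) 1 := ⟨by linarith, by linarith⟩
  have key := hloc' (s - η) hm1 (s + η) hm2 (by
    rw [show s - η - s = -η by ring, abs_neg, abs_of_pos hη0]; exact hηδ) (by
    rw [show s + η - s = η by ring, abs_of_pos hη0]; exact hηδ)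
  rw [show (s - η + (s + η)) / 2 = s by ring] at key
  have h2 : v (s + η) ≤ v m := hmax hm2
  have h3 : v m ≤ v s := hsA.2
  have h4 : v m ≤ v (s - η) := by linarith
  have h5 := hsl ⟨hm1, h4⟩
  linarith

/-- A continuous locally midpoint-preserving curve on `[0,1]` is affine. -/
theorem local_mid_affine {G : Type*} [NormedAddCommGroup G] [NormedSpace ℝ G] (g : ℝ → G)
    (hc : ContinuousOn g (Icc 0 1))
    (hloc : ∀ t ∈ Icc (0 : ℝ) 1, ∃ δ > 0, ∀ s ∈ Icc (0 : ℝ) 1, ∀ s' ∈ Icc (0 : ℝ) 1,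
      |s - t| < δ → |s' - t| < δ → g ((s + s') / 2) = (1 / 2 : ℝ) • (g s + g s'))
    (t : ℝ) (ht : t ∈ Icc (0 : ℝ) 1) : g t = (1 - t) • g 0 + t • g 1 := by
  have h := local_mid_zero (fun t => ‖g t - ((1 - t) • g 0 + t • g 1)‖) ?_ ?_ ?_ ?_ t ht
  · have h' : ‖g t - ((1 - t) • g 0 + t • g 1)‖ = 0 := le_antisymm h (norm_nonneg _)
    exact sub_eq_zero.1 (norm_eq_zero.1 h')
  · apply ContinuousOn.norm
    apply hc.sub
    apply Continuous.continuousOn
    fun_prop
  · simp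
  · simp
  · intro t ht
    obtain ⟨δ, hδ, hl⟩ := hloc t ht
    refine ⟨δ, hδ, ?_⟩
    intro s hs s' hs' h1 h2
    rw [hl s hs s' hs' h1 h2]
    have e : (1 / 2 : ℝ) • (g s + g s') - ((1 - (s + s') / 2) • g 0 + ((s + s') / 2) • g 1)
        = (1 / 2 : ℝ) • ((g s - ((1 - s) • g 0 + s • g 1)) +
          (g s' - ((1 - s') • g 0 + s' • g 1))) := by module
    rw [e, norm_smul]
    have := norm_add_le (g s - ((1 - s) • g 0 + s • g 1)) (g s' - ((1 - s') • g 0 + s' • g 1))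
    norm_num
    linarith

/-- A map on the open unit ball, affine on segments and fixing `0`, is the restriction of a
linear map. -/
theorem exists_linear_of_affine {Z G : Type*} [NormedAddCommGroup Z] [NormedSpace ℝ Z]
    [NormedAddCommGroup G] [NormedSpace ℝ G] (h : Z → G) (h0 : h 0 = 0)
    (ha : ∀ z w : Z, ‖z‖ < 1 → ‖w‖ < 1 → ∀ t ∈ Icc (0 : ℝ) 1,
      h ((1 - t) • z + t • w) = (1 - t) • h z + t • h w) :
    ∃ L : Z →ₗ[ℝ] G, ∀ z : Z, ‖z‖ < 1 → L z = h z := by
  have hhom : ∀ z : Z, ‖z‖ < 1 → ∀ t ∈ Icc (0 : ℝ) 1, h (t • z) = t • h z := by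
    intro z hz t ht
    have := ha 0 z (by simp) hz t ht
    simpa [h0] using this
  set L : Z → G := fun z => (‖z‖ + 1) • h ((‖z‖ + 1)⁻¹ • z) with hL
  have hLr : ∀ (z : Z) (r : ℝ), ‖z‖ < r → L z = r • h (r⁻¹ • z) := by
    -- compare two radii
    have aux : ∀ (z : Z) (r r' : ℝ), ‖z‖ < r → r ≤ r' → r • h (r⁻¹ • z) = r' • h (r'⁻¹ • z) := by
      intro z r r' hr hrr
      have hr0 : 0 < r := (norm_nonneg z).trans_lt hr
      have hr0' : 0 < r' := hr0.trans_le hrr
      have e : r'⁻¹ • z = (r / r') • (r⁻¹ • z) := by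
        rw [smul_smul]
        congr 1
        field_simp
      rw [e, hhom (r⁻¹ • z) ?_ (r / r') ⟨by positivity, ?_⟩, smul_smul]
      · congr 1
        field_simp
      · rw [norm_smul, norm_inv, Real.norm_of_nonneg hr0.le]
        rw [inv_mul_lt_iff₀ hr0]
        simpa using hr
      · rw [div_le_one hr0']
        exact hrr
    intro z r hr
    rcases le_total (‖z‖ + 1) r with hle | hle
    · exact aux z _ _ (by linarith) hle
    · exact (aux z _ _ hr hle).symm
  have hadd : ∀ z w : Z, L (z + w) = L z + L w := by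
    intro z w
    set R : ℝ := 2 * (‖z‖ + ‖w‖ + 1) with hR
    have hz0 := norm_nonneg z
    have hw0 := norm_nonneg w
    have hR0 : 0 < R := by positivity
    have n1 : ‖z + w‖ < R := by
      have := norm_add_le z w
      rw [hR]; linarith
    have n2 : ‖(2 : ℝ) • z‖ < R := by
      rw [norm_smul]; norm_num; rw [hR]; linarith
    have n3 : ‖(2 : ℝ) • w‖ < R := by
      rw [norm_smul]; norm_num; rw [hR]; linarith
    have m2 : ‖R⁻¹ • (2 : ℝ) • z‖ < 1 := by
      rw [norm_smul, norm_inv, Real.norm_of_nonneg hR0.le, inv_mul_lt_iff₀ hR0]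
      simpa using n2
    have m3 : ‖R⁻¹ • (2 : ℝ) • w‖ < 1 := by
      rw [norm_smul, norm_inv, Real.norm_of_nonneg hR0.le, inv_mul_lt_iff₀ hR0]
      simpa using n3
    have e1 : L (z + w) = R • h (R⁻¹ • (z + w)) := hLr _ _ n1
    have p2 : ‖z‖ < R / 2 := by rw [hR]; linarith
    have p3 : ‖w‖ < R / 2 := by rw [hR]; linarith
    have e2 : L z = (R / 2) • h ((R / 2)⁻¹ • z) := hLr _ _ p2
    have e3 : L w = (R / 2) • h ((R / 2)⁻¹ • w) := hLr _ _ p3
    have e4 : R⁻¹ • (z + w) = (1 - (1 / 2 : ℝ)) • (R⁻¹ • (2 : ℝ) • z)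
        + (1 / 2 : ℝ) • (R⁻¹ • (2 : ℝ) • w) := by module
    rw [e1, e4, ha _ _ m2 m3 (1 / 2) ⟨by norm_num, by norm_num⟩, e2, e3]
    have e5 : (R / 2)⁻¹ • z = R⁻¹ • (2 : ℝ) • z := by
      rw [smul_smul]; congr 1; field_simp
    have e6 : (R / 2)⁻¹ • w = R⁻¹ • (2 : ℝ) • w := by
      rw [smul_smul]; congr 1; field_simp
    rw [e5, e6]
    module
  have hL0 : L 0 = 0 := by
    simp [hL, h0]
  have hpos : ∀ (t : ℝ) (z : Z), 0 < t → L (t • z) = t • L z := by
    intro t z ht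
    have hz0 := norm_nonneg z
    have e1 : L (t • z) = (t * (‖z‖ + 1)) • h ((t * (‖z‖ + 1))⁻¹ • t • z) := by
      apply hLr
      rw [norm_smul, Real.norm_of_nonneg ht.le]
      nlinarith
    rw [e1]
    have e2 : (t * (‖z‖ + 1))⁻¹ • t • z = (‖z‖ + 1)⁻¹ • z := by
      rw [smul_smul]
      congr 1
      field_simp
    rw [e2, mul_smul]
  have hneg : ∀ z : Z, L (-z) = - L z := by
    intro z
    have := hadd z (-z)
    rw [add_neg_cancel, hL0] at this
    exact (neg_eq_of_add_eq_zero_right this.symm).symm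
  have hsmul : ∀ (t : ℝ) (z : Z), L (t • z) = t • L z := by
    intro t z
    rcases lt_trichotomy t 0 with ht | ht | ht
    · have := hpos (-t) z (by linarith)
      have e : t • z = -((-t) • z) := by module
      rw [e, hneg, this]
      module
    · subst ht
      simp [hL0]
    · exact hpos t z ht
  refine ⟨{ toFun := L, map_add' := hadd, map_smul' := hsmul }, ?_⟩
  intro z hz
  change L z = h z
  rw [hLr z 1 hz]
  simp

/-- The separation claim: two points of the unit ball having the same truncated distances to all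
unit vectors coincide. -/
theorem eq_of_truncated_dist {Z : Type*} [NormedAddCommGroup Z] [NormedSpace ℝ Z] (z ζ : Z)
    (hz : ‖z‖ ≤ 1) (hζ : ‖ζ‖ ≤ 1) (r : ℝ) (hr : r ≤ 1)
    (h : ∀ w : Z, ‖w‖ = 1 → max ‖z - w‖ r = max ‖ζ - w‖ r) : z = ζ := by
  by_contra hne
  -- one sided version
  have aux : ∀ z ζ : Z, ‖z‖ ≤ 1 → z ≠ ζ →
      (∀ w : Z, ‖w‖ = 1 → max ‖z - w‖ r = max ‖ζ - w‖ r) →
      ∀ φ : StrongDual ℝ Z, ‖φ‖ = 1 → φ (ζ - z) = ‖ζ - z‖ → 0 < φ ζ → False := by
    intro z ζ hz hne h φ hφ hφd hφζ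
    set d : ℝ := ‖ζ - z‖ with hd
    have hd0 : 0 < d := norm_pos_iff.2 (sub_ne_zero.2 (Ne.symm hne))
    set w : Z := -(d⁻¹ • (ζ - z)) with hw
    have hwn : ‖w‖ = 1 := by
      rw [hw, norm_neg, norm_smul, norm_inv, Real.norm_of_nonneg hd0.le, ← hd]
      field_simp
    have hφw : φ w = -1 := by
      rw [hw, map_neg, map_smul, hφd, smul_eq_mul]
      field_simp
    have hbig : 1 < ‖ζ - w‖ := by
      have h1 : φ (ζ - w) ≤ ‖ζ - w‖ := by
        have := φ.le_opNorm (ζ - w)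
        rw [hφ, one_mul] at this
        exact (le_abs_self _).trans this
      rw [map_sub, hφw] at h1
      linarith
    have heq : ‖z - w‖ = ‖ζ - w‖ := by
      have h1 := h w hwn
      have h2 : max ‖ζ - w‖ r = ‖ζ - w‖ := max_eq_left (by linarith)
      rw [h2] at h1
      rcases le_total ‖z - w‖ r with h3 | h3
      · rw [max_eq_right h3] at h1
        linarith
      · rwa [max_eq_left h3] at h1
    have hcomb : z - w = (1 - (1 + d)⁻¹) • z + (1 + d)⁻¹ • (ζ - w) := by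
      have e : z - w - ((1 - (1 + d)⁻¹) • z + (1 + d)⁻¹ • (ζ - w))
          = (d⁻¹ - (1 + d)⁻¹ - (1 + d)⁻¹ * d⁻¹) • (ζ - z) := by
        rw [hw]; module
      have e2 : d⁻¹ - (1 + d)⁻¹ - (1 + d)⁻¹ * d⁻¹ = 0 := by
        field_simp
        ring
      rw [e2, zero_smul] at e
      exact sub_eq_zero.1 e
    have hθ0 : 0 < (1 + d)⁻¹ := by positivity
    have hθ1 : (1 + d)⁻¹ < 1 := inv_lt_one_of_one_lt₀ (by linarith)
    have hle : ‖z - w‖ ≤ (1 - (1 + d)⁻¹) * ‖z‖ + (1 + d)⁻¹ * ‖ζ - w‖ := by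
      conv_lhs => rw [hcomb]
      refine (norm_add_le _ _).trans ?_
      rw [norm_smul, norm_smul, Real.norm_of_nonneg (by linarith), Real.norm_of_nonneg hθ0.le]
    rw [heq] at hle
    nlinarith
  have hne0 : ‖ζ - z‖ ≠ 0 := norm_ne_zero_iff.2 (sub_ne_zero.2 (Ne.symm hne))
  obtain ⟨φ, hφ, hφd⟩ := exists_dual_vector ℝ (ζ - z) hne0
  have hφd' : φ (ζ - z) = ‖ζ - z‖ := by simpa using hφd
  have hpos : 0 < ‖ζ - z‖ := lt_of_le_of_ne (norm_nonneg _) (Ne.symm hne0)
  by_cases hc : 0 < φ ζ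
  · exact aux z ζ hz hne h φ hφ hφd' hc
  · have hφz : φ z < 0 := by
      rw [map_sub] at hφd'
      linarith
    refine aux ζ z hζ (Ne.symm hne) (fun w hw => (h w hw).symm) (-φ) (by rw [norm_neg]; exact hφ)
      ?_ ?_
    · have : (-φ) (z - ζ) = φ (ζ - z) := by
        rw [neg_apply, ← map_neg]
        congr 1
        abel
      rw [this, hφd', norm_sub_rev]
    · rw [neg_apply]
      linarith

end Vale.Agent.P084
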