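import Vale.Agent.P084.Main

/-! Surjective isometries from the unit sphere of `Z × ℝ` (sup norm) extend linearly. -/

namespace Vale.Agent.P084

open Metric Set

variable {Z Y : Type*} [NormedAddCommGroup Z] [NormedSpace ℝ Z]
  [NormedAddCommGroup Y] [NormedSpace ℝ Y]

/-- The point `(z, 1)` of the sphere. -/
def topPt (z : Z) (hz : ‖z‖ ≤ 1) : sphere (0 : Z × ℝ) 1 :=
  ⟨(z, 1), by
    rw [mem_sphere_zero_iff_norm, Prod.norm_def]
    simpa using hz⟩

theorem topPt_coe (z : Z) (hz : ‖z‖ ≤ 1) : ((topPt z hz : sphere (0 : Z × ℝ) 1) : Z × ℝ) = (z, 1) :=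
  rfl

theorem topPt_dist (z w : Z) (hz : ‖z‖ ≤ 1) (hw : ‖w‖ ≤ 1) :
    dist (topPt z hz) (topPt w hw) = ‖z - w‖ := by
  rw [sph_dist, topPt_coe, topPt_coe]
  simp

open Classical in
/-- The map on `Z` induced by the top face. -/
noncomputable def topMap (e : sphere (0 : Z × ℝ) 1 ≃ᵢ sphere (0 : Y) 1) (z : Z) : Y :=
  if hz : ‖z‖ ≤ 1 then (e (topPt z hz) : Y) else 0

theorem topMap_eq (e : sphere (0 : Z × ℝ) 1 ≃ᵢ sphere (0 : Y) 1) (z : Z) (hz : ‖z‖ ≤ 1) :
    topMap e z = e (topPt z hz) := by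
  unfold topMap
  rw [dif_pos hz]

theorem topMap_dist (e : sphere (0 : Z × ℝ) 1 ≃ᵢ sphere (0 : Y) 1) (z w : Z) (hz : ‖z‖ ≤ 1)
    (hw : ‖w‖ ≤ 1) : ‖topMap e z - topMap e w‖ = ‖z - w‖ := by
  rw [topMap_eq e z hz, topMap_eq e w hw, ← dist_eq_norm, ← Subtype.dist_eq, e.dist_eq,
    topPt_dist]

theorem topMap_local (e : sphere (0 : Z × ℝ) 1 ≃ᵢ sphere (0 : Y) 1) (z₀ : Z) (hz₀ : ‖z₀‖ < 1) :
    ∃ δ > 0, ∀ z w : Z, ‖z‖ ≤ 1 → ‖w‖ ≤ 1 → ‖z - z₀‖ < δ → ‖w - z₀‖ < δ →
      topMap e ((1 / 2 : ℝ) • (z + w)) = (1 / 2 : ℝ) • (topMap e z + topMap e w) := by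
  set p := topPt z₀ hz₀.le with hp
  have hp1 : ‖(p : Z × ℝ).1‖ < 1 := hz₀
  have hp2 : (p : Z × ℝ).2 = 1 := rfl
  obtain ⟨ψ, hψ⟩ := flat_target e p hp1 hp2
  have hs := (flat_source p hp1 hp2).mono hψ.pos (by
    have : 0 < 1 - ‖(p : Z × ℝ).1‖ := by linarith
    linarith)
  refine ⟨(1 - ‖(p : Z × ℝ).1‖) / 2 / 2, by
    have := hψ.pos
    linarith, ?_⟩
  intro z w hz hw hzd hwd
  have hm : ‖(1 / 2 : ℝ) • (z + w)‖ ≤ 1 := by
    rw [norm_smul]
    have := norm_add_le z w
    norm_num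
    linarith
  rw [topMap_eq e z hz, topMap_eq e w hw, topMap_eq e _ hm]
  apply flat_mid e e.isometry e.surjective p _ _ _ hs hψ
  · rw [hp, topPt_dist]; exact hzd
  · rw [hp, topPt_dist]; exact hwd
  · rw [topPt_coe, topPt_coe, topPt_coe]
    ext
    · simp
    · simp only [Prod.smul_snd, Prod.snd_add, smul_eq_mul]
      norm_num

theorem topMap_seg (e : sphere (0 : Z × ℝ) 1 ≃ᵢ sphere (0 : Y) 1) (z w : Z) (hz : ‖z‖ < 1)
    (hw : ‖w‖ < 1) (t : ℝ) (ht : t ∈ Icc (0 : ℝ) 1) :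
    topMap e ((1 - t) • z + t • w) = (1 - t) • topMap e z + t • topMap e w := by
  have hn : ∀ s ∈ Icc (0 : ℝ) 1, ‖(1 - s) • z + s • w‖ < 1 := by
    intro s hs
    have := (convex_ball (0 : Z) 1) (mem_ball_zero_iff.2 hz) (mem_ball_zero_iff.2 hw)
      (sub_nonneg.2 hs.2) hs.1 (by ring)
    exact mem_ball_zero_iff.1 this
  have key := local_mid_affine (fun s : ℝ => topMap e ((1 - s) • z + s • w)) ?_ ?_ t ht
  · simpa using key
  · have hl : LipschitzOnWith (‖z - w‖₊) (fun s : ℝ => topMap e ((1 - s) • z + s • w))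
        (Icc 0 1) := by
      apply LipschitzOnWith.of_dist_le_mul
      intro s hs s' hs'
      rw [dist_eq_norm, topMap_dist e _ _ (hn s hs).le (hn s' hs').le]
      have e1 : (1 - s) • z + s • w - ((1 - s') • z + s' • w) = (s' - s) • (z - w) := by module
      rw [e1, norm_smul, dist_comm, Real.dist_eq, mul_comm, coe_nnnorm, Real.norm_eq_abs]
    exact hl.continuousOn
  · intro s hs
    obtain ⟨δ, hδ, hloc⟩ := topMap_local e ((1 - s) • z + s • w) (hn s hs)
    refine ⟨δ / (‖z - w‖ + 1), by positivity, ?_⟩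
    intro s1 hs1 s2 hs2 h1 h2
    have hd : ∀ s' : ℝ, |s' - s| < δ / (‖z - w‖ + 1) →
        ‖((1 - s') • z + s' • w) - ((1 - s) • z + s • w)‖ < δ := by
      intro s' hs'
      have e1 : (1 - s') • z + s' • w - ((1 - s) • z + s • w) = (s - s') • (z - w) := by module
      rw [e1, norm_smul, Real.norm_eq_abs, abs_sub_comm]
      rw [lt_div_iff₀ (by positivity)] at hs'
      have h0 : 0 ≤ |s' - s| := abs_nonneg _
      nlinarith [norm_nonneg (z - w)]
    have := hloc _ _ (hn s1 hs1).le (hn s2 hs2).le (hd s1 h1) (hd s2 h2)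
    rw [← this]
    congr 1
    module

theorem exists_top_linear (e : sphere (0 : Z × ℝ) 1 ≃ᵢ sphere (0 : Y) 1) :
    ∃ L : Z →ₗ[ℝ] Y, ∀ z : Z, ‖z‖ ≤ 1 → topMap e z = L z + topMap e 0 := by
  obtain ⟨L, hL⟩ := exists_linear_of_affine (fun z => topMap e z - topMap e 0) (by simp) (by
    intro z w hz hw t ht
    rw [topMap_seg e z w hz hw t ht]
    module)
  have hLn : ∀ z, ‖L z‖ = ‖z‖ := by
    intro z
    set r := ‖z‖ + 1 with hr
    have hr0 : 0 < r := by positivity
    have h1 : ‖r⁻¹ • z‖ < 1 := by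
      rw [norm_smul, norm_inv, Real.norm_of_nonneg hr0.le, inv_mul_lt_iff₀ hr0]
      linarith
    have h2 := hL (r⁻¹ • z) h1
    have h3 := topMap_dist e (r⁻¹ • z) 0 h1.le (by simp)
    rw [← h2, map_smul, sub_zero, norm_smul, norm_smul] at h3
    have h4 : ‖r⁻¹‖ ≠ 0 := by
      rw [norm_inv]
      exact inv_ne_zero (norm_ne_zero_iff.2 hr0.ne')
    exact mul_left_cancel₀ h4 h3
  refine ⟨L, ?_⟩
  intro z hz
  -- approximate by `s • z`
  have key : ∀ s : ℝ, 0 < s → s < 1 → ‖topMap e z - (L z + topMap e 0)‖ ≤ 2 * (1 - s) := by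
    intro s hs0 hs1
    have hsz : ‖s • z‖ < 1 := by
      rw [norm_smul, Real.norm_of_nonneg hs0.le]
      nlinarith
    have h1 := hL (s • z) hsz
    have h2 := topMap_dist e z (s • z) hz hsz.le
    have e0 : z - s • z = (1 - s) • z := by module
    have h3 : ‖z - s • z‖ ≤ 1 - s := by
      rw [e0, norm_smul, Real.norm_of_nonneg (by linarith)]
      nlinarith
    have e1 : topMap e z - (L z + topMap e 0)
        = (topMap e z - topMap e (s • z)) + (L (s • z) - L z) := by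
      rw [h1]; abel
    have h4 : ‖L (s • z) - L z‖ ≤ 1 - s := by
      rw [← map_sub, hLn, norm_sub_rev]
      exact h3
    rw [e1]
    refine (norm_add_le _ _).trans ?_
    rw [h2]
    linarith
  have h0 : ‖topMap e z - (L z + topMap e 0)‖ ≤ 0 := by
    apply le_of_forall_pos_le_add
    intro ε hε
    rw [zero_add]
    have hm1 : 0 < min (1 / 2) (ε / 2) := lt_min (by norm_num) (by linarith)
    have hm2 : min (1 / 2 : ℝ) (ε / 2) ≤ 1 / 2 := min_le_left _ _
    have hm3 : min (1 / 2 : ℝ) (ε / 2) ≤ ε / 2 := min_le_right _ _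
    have := key (1 - min (1 / 2) (ε / 2)) (by linarith) (by linarith)
    linarith
  exact sub_eq_zero.1 (norm_le_zero_iff.1 h0)

/-- Main extension theorem. -/
theorem extension (e : sphere (0 : Z × ℝ) 1 ≃ᵢ sphere (0 : Y) 1) :
    ∃ T : (Z × ℝ) ≃ₗᵢ[ℝ] Y, ∀ x : sphere (0 : Z × ℝ) 1, T x = e x := by
  obtain ⟨L, hL⟩ := exists_top_linear e
  set c : Y := topMap e 0 with hc
  have hc1 : ‖c‖ = 1 := by
    rw [hc, topMap_eq e 0 (by simp)]
    simp
  set p : sphere (0 : Z × ℝ) 1 := topPt 0 (by simp) with hp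
  have hp1 : ‖(p : Z × ℝ).1‖ < 1 := by
    rw [hp, topPt_coe]; simp
  have hp2 : (p : Z × ℝ).2 = 1 := rfl
  have hpc : (e p : Y) = c := by
    rw [hc, topMap_eq e 0 (by simp)]
  obtain ⟨ψ, hψ⟩ := flat_target e p hp1 hp2
  rw [hpc] at hψ
  have hδ : (1 - ‖(p : Z × ℝ).1‖) / 2 = 1 / 2 := by
    rw [hp, topPt_coe]; simp
  rw [hδ] at hψ
  have hψc : ψ c = 1 := hψ.one c hc1 (by simp)
  have hLn : ∀ z, ‖L z‖ = ‖z‖ := by
    intro z
    set r := ‖z‖ + 1 with hr
    have hr0 : 0 < r := by positivity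
    have h1 : ‖r⁻¹ • z‖ < 1 := by
      rw [norm_smul, norm_inv, Real.norm_of_nonneg hr0.le, inv_mul_lt_iff₀ hr0]
      linarith
    have h2 := hL (r⁻¹ • z) h1.le
    have h3 := topMap_dist e (r⁻¹ • z) 0 h1.le (by simp)
    rw [h2, ← hc, add_sub_cancel_right, map_smul, sub_zero, norm_smul, norm_smul] at h3
    have h4 : ‖r⁻¹‖ ≠ 0 := by
      rw [norm_inv]
      exact inv_ne_zero (norm_ne_zero_iff.2 hr0.ne')
    exact mul_left_cancel₀ h4 h3
  -- norm one on the top face
  have htop : ∀ z, ‖z‖ ≤ 1 → ‖L z + c‖ = 1 := by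
    intro z hz
    rw [← hL z hz, topMap_eq e z hz]
    simp
  -- `ψ` vanishes on the range of `L`
  have hψL : ∀ z, ψ (L z) = 0 := by
    intro z
    set r := 2 * ‖z‖ + 1 with hr
    have hr0 : 0 < r := by positivity
    have h1 : ‖r⁻¹ • z‖ < 1 / 2 := by
      rw [norm_smul, norm_inv, Real.norm_of_nonneg hr0.le, inv_mul_lt_iff₀ hr0]
      linarith
    have h2 := hψ.one (L (r⁻¹ • z) + c) (htop _ (by linarith)) (by
      rw [dist_eq_norm, add_sub_cancel_right, hLn]; exact h1)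
    rw [map_add, hψc, map_smul, map_smul, smul_eq_mul] at h2
    have h3 : r⁻¹ * ψ (L z) = 0 := by linarith
    rcases mul_eq_zero.1 h3 with h4 | h4
    · exact absurd h4 (inv_ne_zero hr0.ne')
    · exact h4
  -- the linear map
  set T : (Z × ℝ) →ₗ[ℝ] Y := L.coprod (LinearMap.toSpanSingleton ℝ Y c) with hT
  have hTa : ∀ (z : Z) (t : ℝ), T (z, t) = L z + t • c := by
    intro z t
    simp [hT]
  -- upper bound
  have hup : ∀ (z : Z) (t r : ℝ), ‖z‖ < r → |t| < r → ‖T (z, t)‖ ≤ r := by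
    intro z t r hz ht
    have hr0 : 0 < r := (norm_nonneg z).trans_lt hz
    have hface : ∀ z : Z, ‖z‖ < r → ‖L z + r • c‖ = r := by
      intro z hz
      have e1 : L z + r • c = r • (L (r⁻¹ • z) + c) := by
        rw [map_smul, smul_add, smul_smul, mul_inv_cancel₀ hr0.ne', one_smul]
      rw [e1, norm_smul, htop, mul_one, Real.norm_of_nonneg hr0.le]
      rw [norm_smul, norm_inv, Real.norm_of_nonneg hr0.le, inv_mul_le_iff₀ hr0]
      linarith
    have hface' : ‖L z - r • c‖ = r := by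
      have := hface (-z) (by rw [norm_neg]; exact hz)
      rw [map_neg] at this
      rw [← norm_neg]
      have e2 : -(L z - r • c) = -L z + r • c := by abel
      rw [e2]; exact this
    rw [abs_lt] at ht
    have e3 : T (z, t) = ((r + t) / (2 * r)) • (L z + r • c) + ((r - t) / (2 * r)) • (L z - r • c)
        := by
      rw [hTa]
      have e4 : ((r + t) / (2 * r)) • (L z + r • c) + ((r - t) / (2 * r)) • (L z - r • c)
          = ((r + t) / (2 * r) + (r - t) / (2 * r)) • L z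
            + (((r + t) / (2 * r) - (r - t) / (2 * r)) * r) • c := by module
      rw [e4]
      have e5 : (r + t) / (2 * r) + (r - t) / (2 * r) = 1 := by field_simp; ring
      have e6 : ((r + t) / (2 * r) - (r - t) / (2 * r)) * r = t := by field_simp; ring
      rw [e5, e6, one_smul]
    rw [e3]
    refine (norm_add_le _ _).trans ?_
    rw [norm_smul, norm_smul, hface z hz, hface']
    have c1 : 0 ≤ (r + t) / (2 * r) := div_nonneg (by linarith) (by linarith)
    have c2 : 0 ≤ (r - t) / (2 * r) := div_nonneg (by linarith) (by linarith)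
    rw [Real.norm_of_nonneg c1, Real.norm_of_nonneg c2]
    have e7 : (r + t) / (2 * r) * r + (r - t) / (2 * r) * r = r := by field_simp; ring
    exact e7.le
  have hup' : ∀ (z : Z) (t : ℝ), ‖T (z, t)‖ ≤ max ‖z‖ |t| := by
    intro z t
    apply le_of_forall_pos_le_add
    intro ε hε
    apply hup
    · have := le_max_left ‖z‖ |t|
      linarith
    · have := le_max_right ‖z‖ |t|
      linarith
  have hlow2 : ∀ (z : Z) (t : ℝ), |t| ≤ ‖T (z, t)‖ := by
    intro z t
    have := hψ.norm_le (T (z, t))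
    rw [hTa, map_add, hψL, map_smul, hψc, smul_eq_mul, mul_one, zero_add] at this
    rw [hTa]
    exact this
  have hlow1 : ∀ (z : Z) (t : ℝ), ‖z‖ ≤ ‖T (z, t)‖ := by
    intro z t
    by_cases hz : z = 0
    · simp [hz]
    have hz0 : 0 < ‖z‖ := norm_pos_iff.2 hz
    set u : Z := (‖z‖)⁻¹ • z with hu
    have hun : ‖u‖ = 1 := by
      rw [hu, norm_smul, norm_inv, norm_norm]
      field_simp
    have hzu : z = ‖z‖ • u := by
      rw [hu, smul_smul, mul_inv_cancel₀ hz0.ne', one_smul]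
    rcases le_total 0 t with ht | ht
    · have h1 : T (z + t • u, 0) = T (z, t) + t • T (u, -1) := by
        rw [hTa, hTa, hTa, map_add, map_smul]
        module
      have h2 : ‖T (z + t • u, 0)‖ = ‖z‖ + t := by
        rw [hTa, zero_smul, add_zero, hLn]
        have : z + t • u = (‖z‖ + t) • u := by
          rw [add_smul, ← hzu]
        rw [this, norm_smul, hun, mul_one, Real.norm_of_nonneg (by linarith)]
      have h3 : ‖T (u, -1)‖ ≤ 1 := by
        have := hup' u (-1)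
        simpa [hun] using this
      have h4 := norm_add_le (T (z, t)) (t • T (u, -1))
      rw [← h1, h2, norm_smul, Real.norm_of_nonneg ht] at h4
      nlinarith
    · have h1 : T (z - t • u, 0) = T (z, t) - t • T (u, 1) := by
        rw [hTa, hTa, hTa, map_sub, map_smul]
        module
      have h2 : ‖T (z - t • u, 0)‖ = ‖z‖ - t := by
        rw [hTa, zero_smul, add_zero, hLn]
        have : z - t • u = (‖z‖ - t) • u := by
          rw [sub_smul, ← hzu]
        rw [this, norm_smul, hun, mul_one, Real.norm_of_nonneg (by linarith)]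
      have h3 : ‖T (u, 1)‖ ≤ 1 := by
        have := hup' u 1
        simpa [hun] using this
      have h4 := norm_sub_le (T (z, t)) (t • T (u, 1))
      rw [← h1, h2, norm_smul, Real.norm_of_nonpos ht] at h4
      nlinarith
  have hTn : ∀ x : Z × ℝ, ‖T x‖ = ‖x‖ := by
    rintro ⟨z, t⟩
    rw [Prod.norm_def]
    exact le_antisymm (hup' z t) (max_le (hlow1 z t) (hlow2 z t))
  -- surjectivity
  have hTs : Function.Surjective T := by
    intro y
    set k : Y := y - ψ y • c with hk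
    have hψk : ψ k = 0 := by
      rw [hk, map_sub, map_smul, hψc, smul_eq_mul, mul_one, sub_self]
    set r := 2 * ‖k‖ + 1 with hr
    have hr0 : 0 < r := by positivity
    have h1 : ‖r⁻¹ • k‖ < 1 / 2 := by
      rw [norm_smul, norm_inv, Real.norm_of_nonneg hr0.le, inv_mul_lt_iff₀ hr0]
      linarith
    have h2 : ‖r⁻¹ • k + c‖ = 1 := by
      apply hψ.sph
      · rw [map_add, map_smul, hψk, hψc]; simp
      · rw [dist_eq_norm, add_sub_cancel_right]; exact h1
    set y' : sphere (0 : Y) 1 := ⟨r⁻¹ • k + c, by simpa using h2⟩ with hy'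
    have h3 : dist (e.symm y') p < 1 - ‖(p : Z × ℝ).1‖ := by
      rw [← e.dist_eq, IsometryEquiv.apply_symm_apply, Subtype.dist_eq, hpc, dist_eq_norm]
      simp only [hy', add_sub_cancel_right]
      have : 1 - ‖(p : Z × ℝ).1‖ = 1 := by rw [hp, topPt_coe]; simp
      rw [this]
      linarith
    obtain ⟨h4, h5⟩ := near_top p (e.symm y') hp2 h3
    set z := ((e.symm y' : sphere (0 : Z × ℝ) 1) : Z × ℝ).1 with hz
    have h6 : e.symm y' = topPt z h5.le := by
      apply Subtype.ext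
      rw [topPt_coe]
      exact Prod.ext rfl h4
    have h7 : topMap e z = r⁻¹ • k + c := by
      rw [topMap_eq e z h5.le, ← h6, IsometryEquiv.apply_symm_apply]
    rw [hL z h5.le] at h7
    have h8 : L z = r⁻¹ • k := add_right_cancel h7
    refine ⟨(r • z, ψ y), ?_⟩
    rw [hTa, map_smul, h8, smul_smul, mul_inv_cancel₀ hr0.ne', one_smul, hk]
    abel
  set Te : (Z × ℝ) ≃ₗᵢ[ℝ] Y := LinearIsometryEquiv.ofSurjective ⟨T, hTn⟩ hTs with hTe
  have hTea : ∀ x, Te x = T x := fun x => rfl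
  -- the top face is fixed
  have hfix : ∀ (w : Z) (hw : ‖w‖ ≤ 1), Te (w, 1) = e (topPt w hw) := by
    intro w hw
    rw [hTea, hTa, one_smul, ← topMap_eq e w hw, hL w hw]
  -- distances
  have hdist : ∀ (x : sphere (0 : Z × ℝ) 1) (w : Z) (hw : ‖w‖ ≤ 1),
      ‖Te.symm (e x) - (w, 1)‖ = ‖(x : Z × ℝ) - (w, 1)‖ := by
    intro x w hw
    have h1 : Te.symm (e x) - (w, 1) = Te.symm ((e x : Y) - e (topPt w hw)) := by
      rw [map_sub, ← hfix w hw, LinearIsometryEquiv.symm_apply_apply]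
    rw [h1, LinearIsometryEquiv.norm_map, ← dist_eq_norm, ← Subtype.dist_eq, e.dist_eq,
      Subtype.dist_eq, dist_eq_norm, topPt_coe]
  have hgn : ∀ x : sphere (0 : Z × ℝ) 1, ‖Te.symm (e x)‖ = 1 := by
    intro x
    rw [LinearIsometryEquiv.norm_map]
    simp
  -- the second coordinate is preserved
  have hsnd : ∀ x : sphere (0 : Z × ℝ) 1, (Te.symm (e x)).2 = (x : Z × ℝ).2 := by
    intro x
    set g := Te.symm (e x) with hg
    have hg1 : ‖g‖ = 1 := hgn x
    rw [Prod.norm_def] at hg1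
    have hga : ‖g.1‖ ≤ 1 := (le_max_left _ _).trans hg1.le
    have hgb : ‖g.2‖ ≤ 1 := (le_max_right _ _).trans hg1.le
    rw [Real.norm_eq_abs, abs_le] at hgb
    have hx2 := sph_snd_le x
    rw [abs_le] at hx2
    have h1 := hdist x (x : Z × ℝ).1 (sph_fst_le x)
    have h2 := hdist x g.1 hga
    rw [← hg, Prod.norm_def, Prod.norm_def] at h1 h2
    simp only [Prod.fst_sub, Prod.snd_sub, sub_self, norm_zero, Real.norm_eq_abs] at h1 h2
    have h3 : |(x : Z × ℝ).2 - 1| = 1 - (x : Z × ℝ).2 := by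
      rw [abs_sub_comm, abs_of_nonneg (by linarith)]
    have h4 : |g.2 - 1| = 1 - g.2 := by
      rw [abs_sub_comm, abs_of_nonneg (by linarith)]
    rw [h3, h4] at h1 h2
    rw [max_eq_right (by linarith : (0 : ℝ) ≤ 1 - (x : Z × ℝ).2)] at h1
    rw [max_eq_right (by linarith : (0 : ℝ) ≤ 1 - g.2)] at h2
    have h5 := le_max_right ‖g.1 - (x : Z × ℝ).1‖ (1 - g.2)
    have h6 := le_max_right ‖(x : Z × ℝ).1 - g.1‖ (1 - (x : Z × ℝ).2)
    linarith
  -- upper half
  have hupper : ∀ x : sphere (0 : Z × ℝ) 1, 0 ≤ (x : Z × ℝ).2 → Te.symm (e x) = x := by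
    intro x hx
    have hx2 := sph_snd_le x
    rw [abs_le] at hx2
    set g := Te.symm (e x) with hg
    have hg1 : ‖g‖ = 1 := hgn x
    rw [Prod.norm_def] at hg1
    have hga : ‖g.1‖ ≤ 1 := (le_max_left _ _).trans hg1.le
    have hs := hsnd x
    rw [← hg] at hs
    refine Prod.ext ?_ hs
    apply eq_of_truncated_dist g.1 (x : Z × ℝ).1 hga (sph_fst_le x) (1 - (x : Z × ℝ).2)
      (by linarith)
    intro w hw
    have h1 := hdist x w hw.le
    rw [← hg, Prod.norm_def, Prod.norm_def] at h1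
    simp only [Prod.fst_sub, Prod.snd_sub, Real.norm_eq_abs] at h1
    rw [hs, abs_sub_comm, abs_of_nonneg (by linarith)] at h1
    exact h1
  have hall : ∀ x : sphere (0 : Z × ℝ) 1, Te.symm (e x) = x := by
    intro x
    rcases le_total 0 (x : Z × ℝ).2 with hx | hx
    · exact hupper x hx
    have hx2 := sph_snd_le x
    rw [abs_le] at hx2
    set g := Te.symm (e x) with hg
    have hg1 : ‖g‖ = 1 := hgn x
    rw [Prod.norm_def] at hg1
    have hga : ‖g.1‖ ≤ 1 := (le_max_left _ _).trans hg1.le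
    have hs := hsnd x
    rw [← hg] at hs
    refine Prod.ext ?_ hs
    apply eq_of_truncated_dist g.1 (x : Z × ℝ).1 hga (sph_fst_le x) (-(x : Z × ℝ).2)
      (by linarith)
    intro w hw
    have hwn : ‖((w, 0) : Z × ℝ)‖ = 1 := by
      rw [Prod.norm_def]; simp [hw]
    set q : sphere (0 : Z × ℝ) 1 := ⟨(w, 0), by simpa using hwn⟩ with hq
    have h2 := hupper q (by simp [hq])
    have h3 : ‖g - (q : Z × ℝ)‖ = ‖(x : Z × ℝ) - (q : Z × ℝ)‖ := by
      have h4 : g - (q : Z × ℝ) = Te.symm ((e x : Y) - e q) := by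
        rw [map_sub, h2]
      rw [h4, LinearIsometryEquiv.norm_map, ← dist_eq_norm, ← Subtype.dist_eq, e.dist_eq,
        Subtype.dist_eq, dist_eq_norm]
    rw [Prod.norm_def, Prod.norm_def] at h3
    simp only [Prod.fst_sub, Prod.snd_sub, Real.norm_eq_abs, hq, sub_zero] at h3
    rw [hs, abs_of_nonpos hx] at h3
    exact h3
  refine ⟨Te, ?_⟩
  intro x
  have := hall x
  rw [LinearIsometryEquiv.symm_apply_eq] at this
  exact this.symm

end Vale.Agent.P084
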