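import Vale.Agent.P084.Mids
import Vale.Agent.P084.Affine

/-! Surjective isometries from the unit sphere of `Z × ℝ` (sup norm). -/

namespace Vale.Agent.P084

open Metric Set

variable {Z Y : Type*} [NormedAddCommGroup Z] [NormedSpace ℝ Z]
  [NormedAddCommGroup Y] [NormedSpace ℝ Y]

theorem sph_fst_le (x : sphere (0 : Z × ℝ) 1) : ‖(x : Z × ℝ).1‖ ≤ 1 := by
  have h : ‖(x : Z × ℝ)‖ = 1 := by simp
  rw [Prod.norm_def] at h
  exact (le_max_left _ _).trans h.le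

theorem sph_snd_le (x : sphere (0 : Z × ℝ) 1) : |(x : Z × ℝ).2| ≤ 1 := by
  have h : ‖(x : Z × ℝ)‖ = 1 := by simp
  rw [Prod.norm_def] at h
  exact (le_max_right _ _).trans h.le

theorem sph_dist (x y : sphere (0 : Z × ℝ) 1) :
    dist x y = max ‖(x : Z × ℝ).1 - (y : Z × ℝ).1‖ |(x : Z × ℝ).2 - (y : Z × ℝ).2| := by
  rw [Subtype.dist_eq, dist_eq_norm, Prod.norm_def]
  rfl

/-- The set of points at distance `2` from the antipode of an interior point of the top face is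
the top face. -/
theorem top_face (p y : sphere (0 : Z × ℝ) 1) (hp1 : ‖(p : Z × ℝ).1‖ < 1)
    (hp2 : (p : Z × ℝ).2 = 1) : dist y (-p) = 2 ↔ (y : Z × ℝ).2 = 1 := by
  have e : dist y (-p) = max ‖(y : Z × ℝ).1 + (p : Z × ℝ).1‖ |(y : Z × ℝ).2 + 1| := by
    rw [sph_dist, coe_neg_sphere, Prod.fst_neg, Prod.snd_neg, hp2, sub_neg_eq_add, sub_neg_eq_add]
  have h1 := sph_fst_le y
  have h2 := sph_snd_le y
  have h3 : ‖(y : Z × ℝ).1 + (p : Z × ℝ).1‖ < 2 := by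
    refine (norm_add_le _ _).trans_lt ?_
    linarith
  rw [abs_le] at h2
  have h4 : |(y : Z × ℝ).2 + 1| = (y : Z × ℝ).2 + 1 := abs_of_nonneg (by linarith)
  rw [e, h4]
  constructor
  · intro h
    rcases le_total ‖(y : Z × ℝ).1 + (p : Z × ℝ).1‖ ((y : Z × ℝ).2 + 1) with h5 | h5
    · rw [max_eq_right h5] at h
      linarith
    · rw [max_eq_left h5] at h
      linarith
  · intro h
    rw [h]
    norm_num
    exact h3.le

/-- A point of the sphere close to an interior point of the top face is in the top face. -/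
theorem near_top (p x : sphere (0 : Z × ℝ) 1) (hp2 : (p : Z × ℝ).2 = 1)
    (hd : dist x p < 1 - ‖(p : Z × ℝ).1‖) : (x : Z × ℝ).2 = 1 ∧ ‖(x : Z × ℝ).1‖ < 1 := by
  rw [sph_dist, hp2, max_lt_iff] at hd
  obtain ⟨h1, h2⟩ := hd
  have h3 : ‖(x : Z × ℝ).1‖ < 1 := by
    have e : (x : Z × ℝ).1 = ((x : Z × ℝ).1 - (p : Z × ℝ).1) + (p : Z × ℝ).1 := by abel
    have := norm_add_le ((x : Z × ℝ).1 - (p : Z × ℝ).1) (p : Z × ℝ).1
    rw [← e] at this
    linarith
  have hn : ‖(x : Z × ℝ)‖ = 1 := by simp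
  rw [Prod.norm_def] at hn
  have h4 : ‖(x : Z × ℝ).2‖ = 1 := by
    rcases le_total ‖(x : Z × ℝ).1‖ ‖(x : Z × ℝ).2‖ with h5 | h5
    · rwa [max_eq_right h5] at hn
    · rw [max_eq_left h5] at hn
      linarith
  have h0 := norm_nonneg (p : Z × ℝ).1
  rw [abs_lt] at h2
  rw [Real.norm_eq_abs, abs_of_pos (by linarith)] at h4
  exact ⟨h4, h3⟩

section sigma

variable (e : sphere (0 : Z × ℝ) 1 ≃ᵢ sphere (0 : Y) 1)

/-- Auxiliary self-isometry `x ↦ e⁻¹(-e(-x))`. -/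
noncomputable def sig (x : sphere (0 : Z × ℝ) 1) : sphere (0 : Z × ℝ) 1 := e.symm (-(e (-x)))

theorem dist_neg_neg_sph {E : Type*} [NormedAddCommGroup E] [NormedSpace ℝ E]
    (x y : sphere (0 : E) 1) : dist (-x) (-y) = dist x y := by
  rw [Subtype.dist_eq, Subtype.dist_eq, coe_neg_sphere, coe_neg_sphere, dist_neg_neg]

theorem sig_dist (x y : sphere (0 : Z × ℝ) 1) : dist (sig e x) (sig e y) = dist x y := by
  unfold sig
  rw [e.symm.dist_eq, dist_neg_neg_sph, e.dist_eq, dist_neg_neg_sph]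

theorem sig_surj (y : sphere (0 : Z × ℝ) 1) : ∃ x, sig e x = y := by
  refine ⟨-(e.symm (-(e y))), ?_⟩
  unfold sig
  simp

theorem sig_top (x : sphere (0 : Z × ℝ) 1) (hx1 : ‖(x : Z × ℝ).1‖ < 1)
    (hx2 : (x : Z × ℝ).2 = 1) : ((sig e x : sphere (0 : Z × ℝ) 1) : Z × ℝ).2 = 1 := by
  rw [← top_face x (sig e x) hx1 hx2]
  unfold sig
  have h1 : dist (e.symm (-(e (-x)))) (-x) = dist (-(e (-x))) (e (-x)) := by
    rw [← e.dist_eq]
    simp
  rw [h1, Subtype.dist_eq, coe_neg_sphere, dist_eq_norm]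
  have : -((e (-x) : sphere (0 : Y) 1) : Y) - (e (-x) : sphere (0 : Y) 1)
      = (-2 : ℝ) • ((e (-x) : sphere (0 : Y) 1) : Y) := by module
  rw [this, norm_smul]
  simp

theorem sig_top_int (x : sphere (0 : Z × ℝ) 1) (hx1 : ‖(x : Z × ℝ).1‖ < 1)
    (hx2 : (x : Z × ℝ).2 = 1) : ‖((sig e x : sphere (0 : Z × ℝ) 1) : Z × ℝ).1‖ < 1 := by
  by_contra hcon
  have h1 : ‖((sig e x : sphere (0 : Z × ℝ) 1) : Z × ℝ).1‖ = 1 :=
    le_antisymm (sph_fst_le _) (not_lt.1 hcon)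
  have h2 := sig_top e x hx1 hx2
  set w := ((sig e x : sphere (0 : Z × ℝ) 1) : Z × ℝ).1 with hw
  set t : ℝ := 1 - min (1 / 2) ((1 - ‖(x : Z × ℝ).1‖) / 2) with ht
  have hm1 : 0 < min (1 / 2) ((1 - ‖(x : Z × ℝ).1‖) / 2) := lt_min (by norm_num) (by linarith)
  have hm2 : min (1 / 2) ((1 - ‖(x : Z × ℝ).1‖) / 2) ≤ 1 / 2 := min_le_left _ _
  have hm3 : min (1 / 2) ((1 - ‖(x : Z × ℝ).1‖) / 2) ≤ (1 - ‖(x : Z × ℝ).1‖) / 2 :=
    min_le_right _ _
  have ht0 : 0 < t := by rw [ht]; linarith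
  have ht1 : t < 1 := by rw [ht]; linarith
  have hn : ‖((w, t) : Z × ℝ)‖ = 1 := by
    rw [Prod.norm_def]
    simp only [h1, Real.norm_eq_abs, abs_of_pos ht0]
    exact max_eq_left ht1.le
  set y : sphere (0 : Z × ℝ) 1 := ⟨(w, t), by simpa using hn⟩ with hy
  obtain ⟨x', hx'⟩ := sig_surj e y
  have hd : dist x' x = 1 - t := by
    rw [← sig_dist e, hx', sph_dist]
    simp only [hy, ← hw, h2, sub_self, norm_zero]
    rw [abs_sub_comm, abs_of_pos (by linarith)]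
    exact max_eq_right (by linarith)
  have hnear := near_top x x' hx2 (by rw [hd, ht]; linarith)
  have h3 := sig_top e x' hnear.2 hnear.1
  rw [hx'] at h3
  simp only [hy] at h3
  linarith

end sigma

/-- Precomposition of an isometry with the antipodal map. -/
noncomputable def negPre (e : sphere (0 : Z × ℝ) 1 ≃ᵢ sphere (0 : Y) 1) :
    sphere (0 : Z × ℝ) 1 ≃ᵢ sphere (0 : Y) 1 :=
  (IsometryEquiv.mk (Equiv.neg (sphere (0 : Z × ℝ) 1)) (by
    apply Isometry.of_dist_eq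
    intro x y
    exact dist_neg_neg_sph x y)).trans e

theorem sig_negPre (e : sphere (0 : Z × ℝ) 1 ≃ᵢ sphere (0 : Y) 1) (x : sphere (0 : Z × ℝ) 1) :
    sig (negPre e) x = -(sig e (-x)) := by
  unfold sig
  apply (negPre e).injective
  rw [IsometryEquiv.apply_symm_apply]
  change -(e (- -x)) = e (- -(e.symm (-(e (- -x)))))
  rw [neg_neg, neg_neg, IsometryEquiv.apply_symm_apply]

theorem sig_top_iff (e : sphere (0 : Z × ℝ) 1 ≃ᵢ sphere (0 : Y) 1) (y : sphere (0 : Z × ℝ) 1) :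
    (y : Z × ℝ).2 = 1 ↔ ((sig e y : sphere (0 : Z × ℝ) 1) : Z × ℝ).2 = 1 := by
  have hn : ‖((0, 1) : Z × ℝ)‖ = 1 := by
    rw [Prod.norm_def]; simp
  set p : sphere (0 : Z × ℝ) 1 := ⟨(0, 1), by simpa using hn⟩ with hp
  have hp1 : ‖(p : Z × ℝ).1‖ < 1 := by simp [hp]
  have hp2 : (p : Z × ℝ).2 = 1 := by simp [hp]
  set q : sphere (0 : Z × ℝ) 1 := sig (negPre e) p with hq
  have hq1 : ‖(q : Z × ℝ).1‖ < 1 := sig_top_int (negPre e) p hp1 hp2
  have hq2 : (q : Z × ℝ).2 = 1 := sig_top (negPre e) p hp1 hp2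
  have hqe : sig e (-p) = -q := by
    rw [hq, sig_negPre, neg_neg]
  rw [← top_face p y hp1 hp2, ← top_face q (sig e y) hq1 hq2, ← hqe, sig_dist]

/-- The image of the top face is a star-shaped piece: sums of two points have norm `2`. -/
theorem star_top (e : sphere (0 : Z × ℝ) 1 ≃ᵢ sphere (0 : Y) 1) (a b : sphere (0 : Z × ℝ) 1)
    (ha : (a : Z × ℝ).2 = 1) (hb : (b : Z × ℝ).2 = 1) : ‖(e a : Y) + e b‖ = 2 := by
  obtain ⟨b', hb'⟩ := sig_surj e b
  have hb2 : (b' : Z × ℝ).2 = 1 := by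
    rw [sig_top_iff e b', hb']; exact hb
  have h1 : e b = -(e (-b')) := by
    rw [← hb']
    unfold sig
    simp
  have h2 : ‖(e a : Y) + e b‖ = dist (e a) (e (-b')) := by
    rw [h1, coe_neg_sphere, ← sub_eq_add_neg, Subtype.dist_eq, dist_eq_norm]
  rw [h2, e.dist_eq, sph_dist, coe_neg_sphere, Prod.fst_neg, Prod.snd_neg, ha, hb2]
  have h3 : ‖(a : Z × ℝ).1 - -(b' : Z × ℝ).1‖ ≤ 2 := by
    refine (norm_sub_le _ _).trans ?_
    rw [norm_neg]
    linarith [sph_fst_le a, sph_fst_le b']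
  norm_num
  simpa using h3

/-- Flatness of the target sphere at the image of an interior point of the top face. -/
theorem flat_target (e : sphere (0 : Z × ℝ) 1 ≃ᵢ sphere (0 : Y) 1) (p : sphere (0 : Z × ℝ) 1)
    (hp1 : ‖(p : Z × ℝ).1‖ < 1) (hp2 : (p : Z × ℝ).2 = 1) :
    ∃ ψ : Y →L[ℝ] ℝ, FlatAt (e p : Y) ((1 - ‖(p : Z × ℝ).1‖) / 2) ψ := by
  apply flatAt_of_star
  · simp
  · linarith
  · have key : ∀ a : Y, ‖a‖ = 1 → dist a (e p) < 1 - ‖(p : Z × ℝ).1‖ →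
        ∃ x : sphere (0 : Z × ℝ) 1, (e x : Y) = a ∧ (x : Z × ℝ).2 = 1 := by
      intro a ha hd
      set a' : sphere (0 : Y) 1 := ⟨a, by simpa using ha⟩ with ha'
      refine ⟨e.symm a', by simp [ha'], ?_⟩
      refine (near_top p (e.symm a') hp2 ?_).1
      rw [← e.dist_eq, IsometryEquiv.apply_symm_apply, Subtype.dist_eq]
      exact hd
    intro a b ha hb hda hdb
    obtain ⟨x, hx, hx2⟩ := key a ha hda
    obtain ⟨y, hy, hy2⟩ := key b hb hdb
    rw [← hx, ← hy]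
    exact star_top e x y hx2 hy2

/-- Flatness of the source sphere at an interior point of the top face. -/
theorem flat_source (p : sphere (0 : Z × ℝ) 1) (hp1 : ‖(p : Z × ℝ).1‖ < 1)
    (hp2 : (p : Z × ℝ).2 = 1) :
    FlatAt (p : Z × ℝ) (1 - ‖(p : Z × ℝ).1‖) (ContinuousLinearMap.snd ℝ Z ℝ) where
  pos := by linarith
  norm_le := by
    intro x
    rw [Prod.norm_def]
    exact le_max_right _ _
  one := by
    intro x hx hd
    exact (near_top p ⟨x, by simpa using hx⟩ hp2 (by rw [Subtype.dist_eq]; exact hd)).1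
  sph := by
    intro x hx hd
    have hx2 : x.2 = 1 := hx
    rw [dist_eq_norm, Prod.norm_def, max_lt_iff] at hd
    have h3 : ‖x.1‖ < 1 := by
      have e : x.1 = (x.1 - (p : Z × ℝ).1) + (p : Z × ℝ).1 := by abel
      have := norm_add_le (x.1 - (p : Z × ℝ).1) (p : Z × ℝ).1
      rw [← e] at this
      have h4 : ‖x.1 - (p : Z × ℝ).1‖ < 1 - ‖(p : Z × ℝ).1‖ := hd.1
      linarith
    rw [Prod.norm_def, hx2]
    simp only [norm_one]
    exact max_eq_right h3.le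

end Vale.Agent.P084
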