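import Mathlib

/-! Metric midpoints in subsets of normed spaces (a local form of the Mazur-Ulam argument). -/

namespace Vale.Agent.P084

open Metric Set

/-- The metric midpoint filtration of two points of a metric space. -/
def mids {S : Type*} [MetricSpace S] (a b : S) : ℕ → Set S
  | 0 => {x | dist x a = dist a b / 2 ∧ dist x b = dist a b / 2}
  | n + 1 => {x | x ∈ mids a b n ∧ ∀ y ∈ mids a b n, dist x y ≤ dist a b / 2 ^ (n + 1)}

theorem mids_zero {S : Type*} [MetricSpace S] (a b x : S) :
    x ∈ mids a b 0 ↔ (dist x a = dist a b / 2 ∧ dist x b = dist a b / 2) := Iff.rfl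

theorem mids_succ {S : Type*} [MetricSpace S] (a b x : S) (n : ℕ) :
    x ∈ mids a b (n + 1) ↔
      (x ∈ mids a b n ∧ ∀ y ∈ mids a b n, dist x y ≤ dist a b / 2 ^ (n + 1)) := Iff.rfl

theorem mids_sub_zero {S : Type*} [MetricSpace S] (a b : S) (n : ℕ) (x : S)
    (hx : x ∈ mids a b n) : x ∈ mids a b 0 := by
  induction n with
  | zero => exact hx
  | succ n ih => exact ih hx.1

theorem mids_diam {S : Type*} [MetricSpace S] (a b : S) (n : ℕ) (x y : S)
    (hx : x ∈ mids a b n) (hy : y ∈ mids a b n) : dist x y ≤ dist a b / 2 ^ n := by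
  cases n with
  | zero =>
    rw [mids_zero] at hx hy
    have h := dist_triangle x a y
    rw [dist_comm a y] at h
    simp only [pow_zero, div_one]
    linarith [hx.1, hy.1]
  | succ n => exact hx.2 y hy.1

theorem mids_transport {S S' : Type*} [MetricSpace S] [MetricSpace S'] (f : S → S')
    (hf : Isometry f) (hs : Function.Surjective f) (a b : S) (n : ℕ) (x : S) :
    x ∈ mids a b n ↔ f x ∈ mids (f a) (f b) n := by
  induction n generalizing x with
  | zero => simp only [mids_zero, hf.dist_eq]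
  | succ n ih =>
    rw [mids_succ, mids_succ, ← ih]
    constructor
    · rintro ⟨h1, h2⟩
      refine ⟨h1, ?_⟩
      intro y hy
      obtain ⟨y', rfl⟩ := hs y
      rw [hf.dist_eq, hf.dist_eq]
      exact h2 y' ((ih y').2 hy)
    · rintro ⟨h1, h2⟩
      refine ⟨h1, ?_⟩
      intro y hy
      have := h2 (f y) ((ih y).1 hy)
      rwa [hf.dist_eq, hf.dist_eq] at this

theorem mids_unique {S : Type*} [MetricSpace S] (a b x y : S)
    (hx : ∀ n, x ∈ mids a b n) (hy : ∀ n, y ∈ mids a b n) : x = y := by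
  apply dist_le_zero.1
  have h : ∀ n : ℕ, dist x y ≤ dist a b / 2 ^ n := fun n => mids_diam a b n x y (hx n) (hy n)
  have hl : Filter.Tendsto (fun n : ℕ => dist a b / 2 ^ n) Filter.atTop (nhds 0) := by
    have := (tendsto_pow_atTop_nhds_zero_of_lt_one (r := (1/2 : ℝ)) (by norm_num)
      (by norm_num)).const_mul (dist a b)
    simp only [mul_zero] at this
    refine this.congr ?_
    intro n
    rw [one_div, inv_pow]
    rfl
  exact ge_of_tendsto' hl h

/-- In a subset of a normed space which is symmetric around the midpoint (near it) the linear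
midpoint is the metric midpoint. -/
theorem mids_midpoint {E : Type*} [NormedAddCommGroup E] [NormedSpace ℝ E] (S : Set E)
    (a b m : S) (hm : (m : E) = (1 / 2 : ℝ) • ((a : E) + b))
    (hsym : ∀ x : S, dist x a = dist a b / 2 → dist x b = dist a b / 2 →
      ∃ x' : S, (x' : E) = (a : E) + b - x) (n : ℕ) :
    m ∈ mids a b n ∧
      ∀ x ∈ mids a b n, ∀ x' : S, (x' : E) = (a : E) + b - x → x' ∈ mids a b n := by
  induction n with
  | zero =>
    refine ⟨?_, ?_⟩
    · rw [mids_zero]
      simp only [Subtype.dist_eq, dist_eq_norm, hm]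
      have e1 : (1 / 2 : ℝ) • ((a : E) + b) - a = (1 / 2 : ℝ) • ((b : E) - a) := by
        module
      have e2 : (1 / 2 : ℝ) • ((a : E) + b) - b = (1 / 2 : ℝ) • ((a : E) - b) := by
        module
      rw [e1, e2, norm_smul, norm_smul, norm_sub_rev (b : E) a]
      norm_num
      ring
    · intro x hx x' hx'
      rw [mids_zero] at hx ⊢
      simp only [Subtype.dist_eq, dist_eq_norm] at hx ⊢
      rw [hx']
      have e1 : (a : E) + b - x - a = b - x := by abel
      have e2 : (a : E) + b - x - b = a - x := by abel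
      rw [e1, e2, norm_sub_rev (b : E) x, norm_sub_rev (a : E) x]
      exact ⟨hx.2, hx.1⟩
  | succ n ih =>
    obtain ⟨ih1, ih2⟩ := ih
    have hrefl : ∀ y ∈ mids a b n, ∃ y' : S, (y' : E) = (a : E) + b - y ∧ y' ∈ mids a b n := by
      intro y hy
      have h0 := mids_sub_zero a b n y hy
      obtain ⟨y', hy'⟩ := hsym y h0.1 h0.2
      exact ⟨y', hy', ih2 y hy y' hy'⟩
    refine ⟨?_, ?_⟩
    · rw [mids_succ]
      refine ⟨ih1, ?_⟩
      intro y hy
      obtain ⟨y', hy', hy'm⟩ := hrefl y hy
      have hd := mids_diam a b n y' y hy'm hy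
      simp only [Subtype.dist_eq, dist_eq_norm] at hd ⊢
      rw [hy'] at hd
      rw [hm]
      have e1 : (1 / 2 : ℝ) • ((a : E) + b) - y = (1 / 2 : ℝ) • ((a : E) + b - y - y) := by
        module
      rw [e1, norm_smul]
      have : ‖(1 / 2 : ℝ)‖ = 1 / 2 := by norm_num
      rw [this, pow_succ]
      have h2 : (0 : ℝ) < 2 ^ n := by positivity
      have : ‖(a : E) - b‖ / (2 ^ n * 2) = (1 / 2) * (‖(a : E) - b‖ / 2 ^ n) := by
        field_simp
      rw [this]
      gcongr
    · intro x hx x' hx'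
      rw [mids_succ] at hx ⊢
      refine ⟨ih2 x hx.1 x' hx', ?_⟩
      intro y hy
      obtain ⟨y', hy', hy'm⟩ := hrefl y hy
      have h := hx.2 y' hy'm
      simp only [Subtype.dist_eq, dist_eq_norm] at h ⊢
      have e : (x' : E) - y = -((x : E) - y') := by
        rw [hx', hy']; abel
      rw [e, norm_neg]
      exact h

/-- Local flatness of a set `S` (a unit sphere in the applications) at a point: near the point
it is a piece of a hyperplane. -/
structure FlatAt {E : Type*} [NormedAddCommGroup E] [NormedSpace ℝ E] (p : E) (δ : ℝ)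
    (ψ : E →L[ℝ] ℝ) : Prop where
  pos : 0 < δ
  norm_le : ∀ x, |ψ x| ≤ ‖x‖
  one : ∀ x, ‖x‖ = 1 → dist x p < δ → ψ x = 1
  sph : ∀ x, ψ x = 1 → dist x p < δ → ‖x‖ = 1

theorem flat_key {E : Type*} [NormedAddCommGroup E] [NormedSpace ℝ E] (p : sphere (0 : E) 1)
    (δ : ℝ) (ψ : E →L[ℝ] ℝ) (hψ : FlatAt (p : E) δ ψ) (a b : sphere (0 : E) 1)
    (ha : dist a p < δ / 2) (hb : dist b p < δ / 2) :
    (∃ m : sphere (0 : E) 1, (m : E) = (1 / 2 : ℝ) • ((a : E) + b)) ∧
      ∀ x : sphere (0 : E) 1, dist x a = dist a b / 2 → dist x b = dist a b / 2 →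
      ∃ x' : sphere (0 : E) 1, (x' : E) = (a : E) + b - x := by
  have hδ := hψ.pos
  have pa : ψ a = 1 := hψ.one a (by simp) (by
    rw [Subtype.dist_eq] at ha; linarith)
  have pb : ψ b = 1 := hψ.one b (by simp) (by
    rw [Subtype.dist_eq] at hb; linarith)
  rw [Subtype.dist_eq] at ha hb
  constructor
  · have hn : ‖(1 / 2 : ℝ) • ((a : E) + b)‖ = 1 := by
      apply hψ.sph
      · rw [map_smul, map_add, pa, pb]; norm_num
      · rw [dist_eq_norm] at ha hb ⊢
        have e : (1 / 2 : ℝ) • ((a : E) + b) - p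
            = (1 / 2 : ℝ) • ((a : E) - p) + (1 / 2 : ℝ) • ((b : E) - p) := by module
        rw [e]
        refine (norm_add_le _ _).trans_lt ?_
        rw [norm_smul, norm_smul]
        norm_num
        linarith
    exact ⟨⟨_, by simpa using hn⟩, rfl⟩
  · intro x hxa hxb
    simp only [Subtype.dist_eq] at hxa hxb
    have hab : dist (a : E) b < δ := by
      have := dist_triangle (a : E) p b
      rw [dist_comm (p : E) b] at this
      linarith
    have hxp : dist (x : E) p < δ := by
      have := dist_triangle (x : E) a p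
      linarith
    have px : ψ x = 1 := hψ.one x (by simp) hxp
    have hn : ‖(a : E) + b - x‖ = 1 := by
      apply hψ.sph
      · rw [map_sub, map_add, pa, pb, px]; norm_num
      · have := dist_triangle ((a : E) + b - x) a p
        have e : dist ((a : E) + b - x) a = dist (x : E) b := by
          rw [dist_eq_norm, dist_eq_norm, norm_sub_rev (x : E) b]
          congr 1
          abel
        rw [e] at this
        linarith
    exact ⟨⟨_, by simpa using hn⟩, rfl⟩

theorem flat_mid {E G : Type*} [NormedAddCommGroup E] [NormedSpace ℝ E]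
    [NormedAddCommGroup G] [NormedSpace ℝ G]
    (f : sphere (0 : E) 1 → sphere (0 : G) 1) (hf : Isometry f) (hs : Function.Surjective f)
    (p : sphere (0 : E) 1) (δ : ℝ) (ψ : E →L[ℝ] ℝ) (ψ' : G →L[ℝ] ℝ)
    (h1 : FlatAt (p : E) δ ψ) (h2 : FlatAt (f p : G) δ ψ')
    (a b m : sphere (0 : E) 1) (ha : dist a p < δ / 2) (hb : dist b p < δ / 2)
    (hm : (m : E) = (1 / 2 : ℝ) • ((a : E) + b)) :
    (f m : G) = (1 / 2 : ℝ) • ((f a : G) + f b) := by
  obtain ⟨-, hsym⟩ := flat_key p δ ψ h1 a b ha hb
  have ha' : dist (f a) (f p) < δ / 2 := by rw [hf.dist_eq]; exact ha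
  have hb' : dist (f b) (f p) < δ / 2 := by rw [hf.dist_eq]; exact hb
  obtain ⟨⟨m', hm'⟩, hsym'⟩ := flat_key (f p) δ ψ' h2 (f a) (f b) ha' hb'
  have A : ∀ n, f m ∈ mids (f a) (f b) n := fun n =>
    (mids_transport f hf hs a b n m).1 ((mids_midpoint _ a b m hm hsym n).1)
  have B : ∀ n, m' ∈ mids (f a) (f b) n := fun n =>
    (mids_midpoint _ (f a) (f b) m' hm' hsym' n).1
  rw [mids_unique _ _ _ _ A B, hm']

theorem FlatAt.mono {E : Type*} [NormedAddCommGroup E] [NormedSpace ℝ E] {p : E} {δ δ' : ℝ}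
    {ψ : E →L[ℝ] ℝ} (h : FlatAt p δ ψ) (h0 : 0 < δ') (hle : δ' ≤ δ) : FlatAt p δ' ψ where
  pos := h0
  norm_le := h.norm_le
  one := fun x hx hd => h.one x hx (hd.trans_le hle)
  sph := fun x hx hd => h.sph x hx (hd.trans_le hle)

theorem segment_norm {E : Type*} [NormedAddCommGroup E] [NormedSpace ℝ E] {a b : E}
    (ha : ‖a‖ = 1) (hb : ‖b‖ = 1) (hab : ‖a + b‖ = 2) {s t : ℝ} (hs : 0 ≤ s) (ht : 0 ≤ t)
    (hst : s + t = 1) : ‖s • a + t • b‖ = 1 := by
  apply le_antisymm
  · refine (norm_add_le _ _).trans ?_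
    rw [norm_smul, norm_smul, ha, hb, Real.norm_of_nonneg hs, Real.norm_of_nonneg ht]
    linarith
  · have e : a + b = (s • a + t • b) + (t • a + s • b) := by
      have : s • a + t • b + (t • a + s • b) = (s + t) • a + (s + t) • b := by module
      rw [this, hst, one_smul, one_smul]
    have h1 : ‖t • a + s • b‖ ≤ 1 := by
      refine (norm_add_le _ _).trans ?_
      rw [norm_smul, norm_smul, ha, hb, Real.norm_of_nonneg hs, Real.norm_of_nonneg ht]
      linarith
    have h2 := norm_add_le (s • a + t • b) (t • a + s • b)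
    rw [← e, hab] at h2
    linarith

/-- If the part of the unit sphere near `c` has all its pairs of points at mutual sum-norm `2`,
then the sphere is flat at `c`. -/
theorem flatAt_of_star {G : Type*} [NormedAddCommGroup G] [NormedSpace ℝ G] (c : G)
    (hc : ‖c‖ = 1) (δ : ℝ) (hδ : 0 < δ)
    (h : ∀ a b : G, ‖a‖ = 1 → ‖b‖ = 1 → dist a c < δ → dist b c < δ → ‖a + b‖ = 2) :
    ∃ ψ : G →L[ℝ] ℝ, FlatAt c (δ / 2) ψ := by
  set K : Set G := {x | ‖x‖ = 1 ∧ dist x c < δ} with hK
  have hKc : Convex ℝ K := by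
    intro a ha b hb s t hs ht hst
    refine ⟨segment_norm ha.1 hb.1 (h a b ha.1 hb.1 ha.2 hb.2) hs ht hst, ?_⟩
    have := (convex_ball c δ) (mem_ball.2 ha.2) (mem_ball.2 hb.2) hs ht hst
    exact mem_ball.1 this
  have hdisj : Disjoint (ball (0 : G) 1) K := by
    rw [Set.disjoint_left]
    intro x hx hxK
    rw [mem_ball_zero_iff] at hx
    have := hxK.1
    linarith
  obtain ⟨g, u, hg1, hg2⟩ := geometric_hahn_banach_open (convex_ball (0 : G) 1) isOpen_ball hKc
    hdisj
  have hcK : c ∈ K := ⟨hc, by simpa using hδ⟩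
  have hu : 0 < u := by simpa using hg1 0 (by simp)
  -- `g x ≤ u` on the closed unit ball
  have hle : ∀ x : G, g x ≤ u * ‖x‖ := by
    intro x
    by_cases hx : x = 0
    · simp [hx]
    · have hx' : 0 < ‖x‖ := norm_pos_iff.2 hx
      have : ∀ s : ℝ, 0 < s → s < 1 → s * g x ≤ u * ‖x‖ := by
        intro s hs0 hs1
        have hmem : (s / ‖x‖) • x ∈ ball (0 : G) 1 := by
          rw [mem_ball_zero_iff, norm_smul, Real.norm_of_nonneg (by positivity)]
          field_simp
          exact hs1
        have h1 := hg1 _ hmem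
        rw [map_smul, smul_eq_mul] at h1
        have h2 : s * g x = (s / ‖x‖ * g x) * ‖x‖ := by field_simp
        rw [h2]
        gcongr
      have hl : Filter.Tendsto (fun s : ℝ => s * g x) (nhdsWithin 1 (Set.Iio 1))
          (nhds (1 * g x)) :=
        ((continuous_id.mul continuous_const).tendsto 1).mono_left nhdsWithin_le_nhds
      rw [one_mul] at hl
      refine le_of_tendsto hl ?_
      filter_upwards [Ioo_mem_nhdsLT (show (0 : ℝ) < 1 by norm_num)] with s hs
      exact this s hs.1 hs.2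
  have hKu : ∀ x ∈ K, g x = u := by
    intro x hx
    apply le_antisymm
    · simpa [hx.1] using hle x
    · exact hg2 x hx
  refine ⟨u⁻¹ • g, ?_, ?_, ?_, ?_⟩
  · linarith
  · intro x
    have h1 := hle x
    have h2 := hle (-x)
    rw [map_neg, norm_neg] at h2
    simp only [smul_apply, smul_eq_mul]
    rw [abs_mul, abs_of_pos (by positivity : 0 < u⁻¹)]
    rw [inv_mul_le_iff₀ hu]
    exact abs_le.2 ⟨by linarith, h1⟩
  · intro x hx hd
    have := hKu x ⟨hx, by linarith⟩
    simp only [smul_apply, smul_eq_mul, this]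
    field_simp
  · intro x hx hd
    simp only [smul_apply, smul_eq_mul] at hx
    have hgx : g x = u := by field_simp at hx; linarith
    have h1 : 1 ≤ ‖x‖ := by
      have := hle x
      rw [hgx] at this
      by_contra hcon
      push Not at hcon
      nlinarith
    have hx0 : 0 < ‖x‖ := by linarith
    have hn : ‖(‖x‖⁻¹) • x‖ = 1 := by
      rw [norm_smul, norm_inv, norm_norm]
      field_simp
    have hd2 : dist ((‖x‖⁻¹) • x) c < δ := by
      have t1 := dist_triangle ((‖x‖⁻¹) • x) x c
      have t2 : dist ((‖x‖⁻¹) • x) x = ‖x‖ - 1 := by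
        rw [dist_eq_norm]
        have : (‖x‖⁻¹) • x - x = (‖x‖⁻¹ - 1) • x := by module
        rw [this, norm_smul, Real.norm_eq_abs, abs_of_nonpos]
        · field_simp
          ring
        · have : ‖x‖⁻¹ ≤ 1 := inv_le_one_of_one_le₀ h1
          linarith
      have t3 : ‖x‖ - 1 ≤ dist x c := by
        rw [dist_eq_norm]
        have := norm_sub_norm_le x c
        rw [hc] at this
        exact this
      linarith
    have := hKu _ ⟨hn, hd2⟩
    rw [map_smul, smul_eq_mul, hgx] at this
    have hu' : u ≠ 0 := hu.ne'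
    have : ‖x‖⁻¹ = 1 := by
      have h5 : ‖x‖⁻¹ * u = 1 * u := by rw [this, one_mul]
      exact mul_right_cancel₀ hu' h5
    exact inv_eq_one.1 this

end Vale.Agent.P084
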